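import Vale.Agent.P066.Main

noncomputable section

namespace Vale.Agent.Results.P066.EPos

open Vale.Agent.P066

theorem result (n : ℕ) (h : Fin n → Fin n) (hm : Monotone h) (hl : ∀ i, i ≤ h i) :
    (∃! c : Nat.Partition n → Polynomial ℤ, chi h = ∑ p, MvPowerSeries.C (c p) * eP p) ∧
      ∀ c : Nat.Partition n → Polynomial ℤ, chi h = ∑ p, MvPowerSeries.C (c p) * eP p →
        ∀ p j, 0 ≤ (c p).coeff j := by
  obtain ⟨c, hc, he⟩ := main_poly h hm hl
  have uniq : ∀ c' : Nat.Partition n → Polynomial ℤ,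
      chi h = ∑ p, MvPowerSeries.C (c' p) * eP p → c' = c := by
    intro c' h'
    have := eP_indep (c' - c) (by
      simp only [Pi.sub_apply, map_sub, sub_mul, Finset.sum_sub_distrib]
      rw [← h', ← he, sub_self])
    exact sub_eq_zero.1 this
  refine ⟨⟨c, he, uniq⟩, fun c' h' => ?_⟩
  rw [uniq c' h']
  exact hc

end Vale.Agent.Results.P066.EPos
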